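import Mathlib

/-!
# Finitistic dimension: basic homological lemmas over a left Noetherian ring
-/

universe u

open CategoryTheory Abelian

namespace Vale.Agent.P176

variable {A : Type u} [Ring A]

/-- Over a left Noetherian ring, projective dimension of a finitely generated module can be
tested on finitely generated modules. -/
lemma hasProjectiveDimensionLT_of_forall_finite [IsNoetherianRing A]
    (M : ModuleCat.{u} A) [Module.Finite A M] (n : ℕ)
    (h : ∀ L : ModuleCat.{u} A, Module.Finite A L → Subsingleton (Ext M L n)) :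
    HasProjectiveDimensionLT M n := by
  induction n generalizing M with
  | zero =>
    have : Subsingleton (M ⟶ M) := Ext.homEquiv₀.subsingleton_congr.mp (h M ‹_›)
    have : Limits.IsZero M := (Limits.IsZero.iff_id_eq_zero M).mpr (Subsingleton.eq_zero (𝟙 M))
    exact this.hasProjectiveDimensionLT_zero
  | succ n hn =>
    rcases Module.Finite.exists_fin' A M with ⟨m, f, surjf⟩
    let S : ShortComplex (ModuleCat.{u} A) := f.shortComplexKer
    have hS : S.ShortExact := LinearMap.shortExact_shortComplexKer surjf
    match n with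
    | 0 =>
      simp only [zero_add, ← projective_iff_hasProjectiveDimensionLT_one]
      have : Subsingleton (Ext M S.X₁ 1) := h S.X₁ inferInstance
      rcases Ext.covariant_sequence_exact₃ M hS (Ext.mk₀ (𝟙 M)) (zero_add 1)
        (Subsingleton.eq_zero _) with ⟨f', hf'⟩
      rcases (Ext.mk₀_bijective M S.X₂).2 f' with ⟨f, hf⟩
      rw [← hf, Ext.mk₀_comp_mk₀, (Ext.mk₀_bijective _ _).1.eq_iff] at hf'
      exact (Retract.mk f S.g hf').projective
    | n + 1 =>
      rw [hS.hasProjectiveDimensionLT_X₃_iff n inferInstance]
      have (L : ModuleCat.{u} A) : Subsingleton (Ext S.X₁ L (n + 1)) ↔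
        Subsingleton (Ext M L (n + 2)) := by
        have (m : ℕ) : Subsingleton (Ext S.X₂ L (m + 1)) := Ext.subsingleton_of_projective S.X₂ L m
        have isi : IsIso (AddCommGrpCat.ofHom (hS.extClass.precomp L (add_comm 1 _))) :=
          (Ext.contravariantSequence_exact hS L (n + 1) (n + 2)
            (add_comm 1 _)).isIso_map' 1 (by decide)
              ((AddCommGrpCat.of _).isZero_of_subsingleton.eq_zero_of_src _)
                ((AddCommGrpCat.of _).isZero_of_subsingleton.eq_zero_of_tgt _)
        exact (asIso (AddCommGrpCat.ofHom (hS.extClass.precomp L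
          (add_comm 1 _)))).addCommGroupIsoToAddEquiv.subsingleton_congr
      apply hn S.X₁
      simpa [this] using h

end Vale.Agent.P176

namespace Vale.Agent.P176

variable {A : Type u} [Ring A]

/-- Middle term of a short exact sequence: vanishing of `Ext^d(M, -)` at both ends gives
vanishing in the middle. -/
lemma ext_subsingleton_X₂ (M : ModuleCat.{u} A) (d : ℕ) {S : ShortComplex (ModuleCat.{u} A)}
    (hS : S.ShortExact) (h₁ : Subsingleton (Ext M S.X₁ d)) (h₃ : Subsingleton (Ext M S.X₃ d)) :
    Subsingleton (Ext M S.X₂ d) := by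
  refine ⟨fun x y ↦ ?_⟩
  have key : ∀ z : Ext M S.X₂ d, z = 0 := by
    intro z
    obtain ⟨w, rfl⟩ := Ext.covariant_sequence_exact₂ M hS z (Subsingleton.elim _ _)
    rw [Subsingleton.elim w 0, Ext.zero_comp]
  rw [key x, key y]

/-- If `pd M ≤ d`, then `Ext^d(M, -)` is right exact. -/
lemma ext_subsingleton_X₃ (M : ModuleCat.{u} A) (d : ℕ) [HasProjectiveDimensionLT M (d + 1)]
    {S : ShortComplex (ModuleCat.{u} A)}
    (hS : S.ShortExact) (h₂ : Subsingleton (Ext M S.X₂ d)) :
    Subsingleton (Ext M S.X₃ d) := by
  refine ⟨fun x y ↦ ?_⟩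
  have key : ∀ z : Ext M S.X₃ d, z = 0 := by
    intro z
    obtain ⟨w, rfl⟩ := Ext.covariant_sequence_exact₃ M hS z rfl
      (Ext.eq_zero_of_hasProjectiveDimensionLT _ (d + 1) le_rfl)
    rw [Subsingleton.elim w 0, Ext.zero_comp]
  rw [key x, key y]

lemma ext_subsingleton_of_surjective (M : ModuleCat.{u} A) (d : ℕ)
    [HasProjectiveDimensionLT M (d + 1)]
    {Y N : Type u} [AddCommGroup Y] [Module A Y] [AddCommGroup N] [Module A N]
    (f : Y →ₗ[A] N) (hf : Function.Surjective f)
    (h : Subsingleton (Ext M (ModuleCat.of A Y) d)) :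
    Subsingleton (Ext M (ModuleCat.of A N) d) :=
  ext_subsingleton_X₃ M d (LinearMap.shortExact_shortComplexKer hf) h

lemma ext_subsingleton_of_isZero (M : ModuleCat.{u} A) (d : ℕ) {N : ModuleCat.{u} A}
    (hN : Limits.IsZero N) : Subsingleton (Ext M N d) := by
  refine ⟨fun x y ↦ ?_⟩
  have key : ∀ z : Ext M N d, z = 0 := by
    intro z
    rw [← z.comp_mk₀_id, hN.eq_of_src (𝟙 N) 0, Ext.mk₀_zero, Ext.comp_zero]
  rw [key x, key y]

/-- If `pd M ≤ d` and `Ext^d(M, A) = 0` then `Ext^d(M, N) = 0` for all finitely generated `N`. -/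
lemma ext_subsingleton_of_finite (M : ModuleCat.{u} A) (d : ℕ)
    [HasProjectiveDimensionLT M (d + 1)]
    (hA : Subsingleton (Ext M (ModuleCat.of A A) d)) :
    ∀ (n : ℕ) (N : Type u) [AddCommGroup N] [Module A N] (s : Fin n → N),
      Submodule.span A (Set.range s) = ⊤ → Subsingleton (Ext M (ModuleCat.of A N) d) := by
  intro n
  induction n with
  | zero =>
    intro N _ _ s hs
    apply ext_subsingleton_of_isZero
    rw [ModuleCat.isZero_iff_subsingleton]
    have : (⊤ : Submodule A N) = ⊥ := by
      rw [← hs]
      simp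
    exact (Submodule.subsingleton_iff A).mp (subsingleton_of_bot_eq_top this.symm)
  | succ n ih =>
    intro N _ _ s hs
    let N' : Submodule A N := Submodule.span A {s 0}
    have hS := LinearMap.shortExact_shortComplexKer (f := N'.mkQ) (Submodule.mkQ_surjective N')
    refine ext_subsingleton_X₂ M d hS ?_ ?_
    · -- kernel is cyclic
      let g : A →ₗ[A] LinearMap.ker N'.mkQ :=
        (LinearMap.toSpanSingleton A N (s 0)).codRestrict _ (by
          intro a
          simp only [Submodule.ker_mkQ, LinearMap.toSpanSingleton_apply]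
          exact Submodule.smul_mem _ _ (Submodule.mem_span_singleton_self _))
      have hg : Function.Surjective g := by
        rintro ⟨x, hx⟩
        rw [Submodule.ker_mkQ, Submodule.mem_span_singleton] at hx
        obtain ⟨a, rfl⟩ := hx
        exact ⟨a, Subtype.ext (by simp [g])⟩
      exact ext_subsingleton_of_surjective M d g hg hA
    · refine ih (N ⧸ N') (fun i ↦ N'.mkQ (s i.succ)) ?_
      rw [eq_top_iff]
      rintro x -
      obtain ⟨y, rfl⟩ := Submodule.mkQ_surjective N' x
      have hy : y ∈ Submodule.span A (Set.range s) := hs ▸ Submodule.mem_top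
      induction hy using Submodule.span_induction with
      | mem z hz =>
        obtain ⟨i, rfl⟩ := hz
        refine Fin.cases ?_ (fun j ↦ ?_) i
        · have : N'.mkQ (s 0) = 0 := by
            simp only [Submodule.mkQ_apply, Submodule.Quotient.mk_eq_zero]
            exact Submodule.mem_span_singleton_self _
          rw [this]
          exact Submodule.zero_mem _
        · exact Submodule.subset_span ⟨j, rfl⟩
      | zero => simp
      | add a b _ _ ha hb => rw [map_add]; exact Submodule.add_mem _ ha hb
      | smul a b _ hb => rw [map_smul]; exact Submodule.smul_mem _ _ hb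

/-- Key lemma (classical): over a left Noetherian ring, if `M` is finitely generated,
`pd M ≤ d` and `Ext^d(M, A) = 0`, then `pd M < d`. -/
lemma hasProjectiveDimensionLT_of_ext_regular [IsNoetherianRing A]
    (M : ModuleCat.{u} A) [Module.Finite A M] (d : ℕ)
    [HasProjectiveDimensionLT M (d + 1)]
    (hA : Subsingleton (Ext M (ModuleCat.of A A) d)) :
    HasProjectiveDimensionLT M d := by
  apply hasProjectiveDimensionLT_of_forall_finite
  intro L hL
  obtain ⟨n, s, hs⟩ := Module.Finite.exists_fin (R := A) (M := L)
  exact ext_subsingleton_of_finite M d hA n L s hs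

end Vale.Agent.P176
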