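import Vale.Agent.P176.Basic

/-!
# Co-delooping bound for the little finitistic dimension
-/

universe u

open CategoryTheory Abelian

namespace Vale.Agent.P176

variable {A : Type u} [Ring A]

/-- `IsCosyzygy m Z W` : `W` is an `m`-th cosyzygy of `Z`, i.e. there is an exact sequence
`0 → Z → I⁰ → ⋯ → I^{m-1} → W → 0` with all `Iʲ` injective (spliced from short exact
sequences). -/
inductive IsCosyzygy : ℕ → ModuleCat.{u} A → ModuleCat.{u} A → Prop
  | zero (Z : ModuleCat.{u} A) : IsCosyzygy 0 Z Z
  | succ {m : ℕ} {Z : ModuleCat.{u} A} (S : ShortComplex (ModuleCat.{u} A))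
      (hS : S.ShortExact) (hI : Injective S.X₂) (h : IsCosyzygy m Z S.X₁) :
      IsCosyzygy (m + 1) Z S.X₃

/-- `IsStableCosyzygy m C` : up to an injective direct summand, `C` is a direct summand (retract)
of an `m`-th cosyzygy of some module. -/
def IsStableCosyzygy (m : ℕ) (C : ModuleCat.{u} A) : Prop :=
  ∃ Z W I : ModuleCat.{u} A, IsCosyzygy m Z W ∧ Injective I ∧ Nonempty (Retract C (W ⊞ I))

/-- `CoDeloopingResolution r i Y` : there is an exact sequence
`0 → Y → Cⁱ → C^{i+1} → ⋯ → Cˢ → 0` with `s ≤ r` in which every `Cʲ` is, up to injective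
summands, a direct summand of a `(j+1)`-st cosyzygy. -/
inductive CoDeloopingResolution (r : ℕ) : ℕ → ModuleCat.{u} A → Prop
  | base {i : ℕ} {Y : ModuleCat.{u} A} (hi : i ≤ r) (h : IsStableCosyzygy (i + 1) Y) :
      CoDeloopingResolution r i Y
  | step {i : ℕ} (S : ShortComplex (ModuleCat.{u} A)) (hS : S.ShortExact)
      (h₂ : IsStableCosyzygy (i + 1) S.X₂) (h₃ : CoDeloopingResolution r (i + 1) S.X₃) :
      CoDeloopingResolution r i S.X₁

lemma IsCosyzygy.ext_subsingleton (M : ModuleCat.{u} A) {m : ℕ} {Z W : ModuleCat.{u} A}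
    (h : IsCosyzygy m Z W) :
    ∀ e : ℕ, Subsingleton (Ext M Z (e + 1 + m)) → Subsingleton (Ext M W (e + 1)) := by
  induction h with
  | zero Z => intro e h; exact h
  | @succ m Z S hS hI h ih =>
    intro e he
    have h1 : Subsingleton (Ext M S.X₁ (e + 1 + 1)) := by
      apply ih (e + 1)
      have : e + 1 + 1 + m = e + 1 + (m + 1) := by omega
      rw [this]
      exact he
    refine ⟨fun x y ↦ ?_⟩
    have key : ∀ z : Ext M S.X₃ (e + 1), z = 0 := by
      intro z
      obtain ⟨w, rfl⟩ := Ext.covariant_sequence_exact₃ M hS z rfl (Subsingleton.elim _ _)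
      rw [Ext.eq_zero_of_injective w, Ext.zero_comp]
    rw [key x, key y]

lemma ext_subsingleton_of_retract (M : ModuleCat.{u} A) (e : ℕ) {C D : ModuleCat.{u} A}
    (r : Retract C D) (h : Subsingleton (Ext M D e)) : Subsingleton (Ext M C e) := by
  refine ⟨fun x y ↦ ?_⟩
  have key : ∀ z : Ext M C e, z = 0 := by
    intro z
    rw [← z.comp_mk₀_id, ← r.retract, ← Ext.mk₀_comp_mk₀, ← Ext.comp_assoc_of_third_deg_zero,
      Subsingleton.elim (z.comp (Ext.mk₀ r.i) (add_zero e)) 0, Ext.zero_comp]
  rw [key x, key y]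

lemma IsStableCosyzygy.ext_subsingleton (M : ModuleCat.{u} A) {m : ℕ} {C : ModuleCat.{u} A}
    (h : IsStableCosyzygy m C) (e : ℕ) [HasProjectiveDimensionLT M (e + 1 + m)] :
    Subsingleton (Ext M C (e + 1)) := by
  obtain ⟨Z, W, I, hW, hI, ⟨r⟩⟩ := h
  apply ext_subsingleton_of_retract M (e + 1) r
  refine ext_subsingleton_X₂ M (e + 1)
    (ShortComplex.Splitting.ofHasBinaryBiproduct W I).shortExact ?_ ?_
  · exact hW.ext_subsingleton M e (HasProjectiveDimensionLT.subsingleton M _ _ le_rfl Z)
  · exact ⟨fun x y ↦ by rw [Ext.eq_zero_of_injective x, Ext.eq_zero_of_injective y]⟩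

lemma CoDeloopingResolution.le {r i : ℕ} {Y : ModuleCat.{u} A}
    (h : CoDeloopingResolution r i Y) : i ≤ r := by
  induction h with
  | base hi _ => exact hi
  | step _ _ _ _ ih => omega

lemma CoDeloopingResolution.ext_subsingleton (M : ModuleCat.{u} A) {r i : ℕ}
    {Y : ModuleCat.{u} A} (h : CoDeloopingResolution r i Y) :
    ∀ e : ℕ, r < e + i → HasProjectiveDimensionLT M (e + i + 1) → Subsingleton (Ext M Y e) := by
  induction h with
  | @base i Y hi h =>
    intro e he hM
    obtain ⟨e, rfl⟩ : ∃ e', e = e' + 1 := ⟨e - 1, by omega⟩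
    have : HasProjectiveDimensionLT M (e + 1 + (i + 1)) := by
      have h' : e + 1 + (i + 1) = e + 1 + i + 1 := by omega
      rw [h']; exact hM
    exact h.ext_subsingleton M e
  | @step i S hS h₂ h₃ ih =>
    intro e he hM
    have hir : i + 1 ≤ r := h₃.le
    obtain ⟨e, rfl⟩ : ∃ e', e = e' + 1 := ⟨e - 1, by omega⟩
    have h2 : Subsingleton (Ext M S.X₂ (e + 1)) := by
      have : HasProjectiveDimensionLT M (e + 1 + (i + 1)) := by
        have h' : e + 1 + (i + 1) = e + 1 + i + 1 := by omega
        rw [h']; exact hM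
      exact h₂.ext_subsingleton M e
    have h3 : Subsingleton (Ext M S.X₃ e) := by
      apply ih e (by omega)
      have h' : e + (i + 1) + 1 = e + 1 + i + 1 := by omega
      rw [h']; exact hM
    refine ⟨fun x y ↦ ?_⟩
    have key : ∀ z : Ext M S.X₁ (e + 1), z = 0 := by
      intro z
      obtain ⟨w, rfl⟩ := Ext.covariant_sequence_exact₁ M hS z (Subsingleton.elim _ _) rfl
      rw [Subsingleton.elim w 0, Ext.zero_comp]
    rw [key x, key y]

/-- Co-delooping bound. -/
theorem hasProjectiveDimensionLE_of_coDeloopingResolution [IsNoetherianRing A] (r : ℕ)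
    (h : CoDeloopingResolution r 0 (ModuleCat.of A A))
    (M : ModuleCat.{u} A) [Module.Finite A M] (d : ℕ) (hM : HasProjectiveDimensionLE M d) :
    HasProjectiveDimensionLE M r := by
  have key : ∀ k : ℕ, HasProjectiveDimensionLE M (r + k) → HasProjectiveDimensionLE M r := by
    intro k
    induction k with
    | zero => exact fun h ↦ h
    | succ k ih =>
      intro hk
      apply ih
      have hk' : HasProjectiveDimensionLT M (r + k + 1 + 1) := hk
      have hA : Subsingleton (Ext M (ModuleCat.of A A) (r + k + 1)) :=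
        h.ext_subsingleton M (r + k + 1) (by omega) hk'
      exact hasProjectiveDimensionLT_of_ext_regular M (r + k + 1) hA
  apply key d
  exact hasProjectiveDimensionLT_of_ge M (d + 1) (r + d + 1) (by omega)

end Vale.Agent.P176
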